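import Crest.Agent.R177.Hyp.Abstract

/-!
# Slim triangles and the four point condition from the rectangle inequality
-/

set_option autoImplicit false

namespace Crest.Agent.R177.HypAux

namespace DMet

variable {G : Type} {M : DMet G}

/-- leave the side `A` at distance `2r` before `p` -/
theorem jump {A S : Set G} {x y p : G} (hA : M.Geo A x y) (hx : x ∈ S) (hp : p ∈ A) {r : ℕ}
    (hnear : ∀ a ∈ A, ∃ q ∈ S, M.d a q ≤ r) (hfar : ∀ q ∈ S, r ≤ M.d p q) :
    ∃ x' ∈ A, ∃ u ∈ S, M.d x x' ≤ M.d x p ∧ M.d x' p ≤ 2 * r ∧ M.d x' u ≤ r ∧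
      M.Pth (fun v => r ≤ M.d p v) x' u r := by
  by_cases ht : M.d x p ≤ 2 * r
  · refine ⟨x, hA.meml, x, hx, by rw [M.refl]; omega, ht, by rw [M.refl]; omega, ?_⟩
    exact (Pth.nil x (hfar x hx)).le (Nat.zero_le _)
  · have := hA.col p hp
    obtain ⟨x', hx', hd⟩ := hA.ex (M.d x p - 2 * r) (by omega)
    have h1 := hA.lin x' hx' p hp (by omega)
    obtain ⟨u, hu, hdu⟩ := hnear x' hx'
    refine ⟨x', hx', u, hu, by omega, by omega, hdu, ((M.pth_geo x' u).mono ?_).le hdu⟩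
    intro v hv
    have := M.tri x' v p
    have := M.symm v p
    omega

/-- advance by `5r` along a side and jump to another side -/
theorem adv {E S : Set G} {e0 e1 p u : G} (hE : M.Geo E e0 e1) (he : e1 ∈ S) (hu : u ∈ E) {r : ℕ}
    (hnear : ∀ a ∈ E, ∃ q ∈ S, M.d a q ≤ r) (hfar : ∀ q ∈ E, r ≤ M.d p q)
    (hup : M.d p u ≤ 3 * r) :
    ∃ q ∈ S, M.Pth (fun v => r ≤ M.d p v) u q (6 * r) ∧
      (q = e1 ∨ (M.d e0 u + 4 * r ≤ M.d e0 q ∧ M.d e1 q + 4 * r ≤ M.d e1 u)) := by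
  have hcu := hE.col u hu
  by_cases ht : M.d u e1 ≤ 5 * r
  · exact ⟨e1, he, ((hE.pth hu hE.memr).mono hfar).le (by omega), Or.inl rfl⟩
  · obtain ⟨u', hu', hd⟩ := hE.ex (M.d e0 u + 5 * r) (by omega)
    have h1 := hE.lin u hu u' hu' (by omega)
    have h2 := hE.col u' hu'
    obtain ⟨q, hq, hdq⟩ := hnear u' hu'
    refine ⟨q, hq, ?_, Or.inr ⟨?_, ?_⟩⟩
    · have P1 := (hE.pth hu hu').mono hfar
      have P2 : M.Pth (fun v => r ≤ M.d p v) u' q (M.d u' q) := by
        refine (M.pth_geo u' q).mono ?_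
        intro v hv
        have := M.tri u p u'
        have := M.symm u p
        have := M.tri p v u'
        have := M.symm v u'
        omega
      exact (P1.trans P2).le (by omega)
    · have := M.tri e0 q u'
      have := M.symm q u'
      omega
    · have := M.tri e1 u' q
      have := M.symm e1 u'
      have := M.symm e1 u
      omega

/-- an extremal point of an `r`-slim triangle admits a short detour -/
theorem short_detour {A B D : Set G} {x y z p : G} (hA : M.Geo A x y) (hB : M.Geo B x z)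
    (hD : M.Geo D z y) {r : ℕ} (nA : ∀ a ∈ A, ∃ q ∈ B ∪ D, M.d a q ≤ r)
    (nB : ∀ a ∈ B, ∃ q ∈ A ∪ D, M.d a q ≤ r) (nD : ∀ a ∈ D, ∃ q ∈ A ∪ B, M.d a q ≤ r)
    (hp : p ∈ A) (hfar : ∀ q ∈ B ∪ D, r ≤ M.d p q) :
    ∃ x' y', M.d x' p + M.d p y' = M.d x' y' ∧ M.Pth (fun v => r ≤ M.d p v) x' y' (20 * r) := by
  have fB : ∀ q ∈ B, r ≤ M.d p q := fun q hq => hfar q (Or.inl hq)
  have fD : ∀ q ∈ D, r ≤ M.d p q := fun q hq => hfar q (Or.inr hq)
  obtain ⟨x', hx', u, hu, hx1, hx2, hx3, Px⟩ := jump hA (Or.inl hB.meml) hp nA hfar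
  obtain ⟨y', hy', v, hv, hy1, hy2, hy3, Py⟩ := jump hA.symm (Or.inr hD.memr) hp nA hfar
  have hcp := hA.col p hp
  -- points of `A` after `p`
  have after : ∀ q ∈ A, M.d x p ≤ M.d x q → M.d x' p + M.d p q = M.d x' q := by
    intro q hq h
    have := hA.lin x' hx' p hp hx1
    have := hA.lin p hp q hq h
    have := hA.lin x' hx' q hq (by omega)
    omega
  have after' : ∀ q ∈ A, M.d y q ≤ M.d y p → M.d x' p + M.d p q = M.d x' q := by
    intro q hq h
    apply after q hq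
    have := hA.col q hq
    have := M.symm y q
    have := M.symm y p
    omega
  have hpu : M.d p u ≤ 3 * r := by
    have := M.tri p x' u
    have := M.symm p x'
    omega
  have hpv : M.d p v ≤ 3 * r := by
    have := M.tri p y' v
    have := M.symm p y'
    omega
  have huv : M.d u v ≤ 6 * r := by
    have := M.tri u p v
    have := M.symm u p
    omega
  -- closing up along a side containing `v`
  have close : ∀ {E : Set G} {e0 e1 : G}, M.Geo E e0 e1 → (∀ q ∈ E, r ≤ M.d p q) → v ∈ E →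
      ∀ q ∈ E, M.Pth (fun v => r ≤ M.d p v) u q (6 * r) →
      ∃ x' y', M.d x' p + M.d p y' = M.d x' y' ∧
        M.Pth (fun v => r ≤ M.d p v) x' y' (20 * r) := by
    intro E e0 e1 hE fE hvE q hq P
    refine ⟨x', y', after' y' hy' hy1, ?_⟩
    have P2 := (hE.pth hq hvE).mono fE
    have h1 := P.dist_le
    have h2 := M.tri q u v
    have h3 := M.symm q u
    exact (((Px.trans P).trans P2).trans Py.symm).le (by omega)
  have triv : M.Pth (fun v => r ≤ M.d p v) u u (6 * r) := (Pth.nil u Px.last).le (Nat.zero_le _)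
  rcases hu with hu | hu
  · rcases hv with hv | hv
    · exact close hB fB hv u hu triv
    · obtain ⟨q, hq, P, hq'⟩ := adv hB (S := A ∪ D) (Or.inr hD.meml) hu nB fB hpu
      by_cases hqD : q ∈ D
      · exact close hD fD hv q hqD P
      · have hqA : q ∈ A := hq.resolve_right hqD
        rcases hq' with rfl | ⟨h1, _⟩
        · exact absurd hD.meml hqD
        · refine ⟨x', q, after q hqA ?_, (Px.trans P).le (by omega)⟩
          have := M.tri x u x'
          have := M.symm u x'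
          have := M.tri x x' p
          omega
  · rcases hv with hv | hv
    · obtain ⟨q, hq, P, hq'⟩ := adv hD (S := A ∪ B) (Or.inl hA.memr) hu nD fD hpu
      by_cases hqB : q ∈ B
      · exact close hB fB hv q hqB P
      · have hqA : q ∈ A := hq.resolve_right hqB
        refine ⟨x', q, after' q hqA ?_, (Px.trans P).le (by omega)⟩
        rcases hq' with rfl | ⟨_, h2⟩
        · rw [M.refl]; omega
        · have := M.tri y p u
          omega
    · exact close hD fD hv u hu triv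

theorem extremal_le {ρ C : ℕ} (hρ : 0 < ρ) (hR : M.Rect ρ C) {A B D : Set G} {x y z p : G}
    (hA : M.Geo A x y) (hB : M.Geo B x z)
    (hD : M.Geo D z y) {r : ℕ} (nA : ∀ a ∈ A, ∃ q ∈ B ∪ D, M.d a q ≤ r)
    (nB : ∀ a ∈ B, ∃ q ∈ A ∪ D, M.d a q ≤ r) (nD : ∀ a ∈ D, ∃ q ∈ A ∪ B, M.d a q ≤ r)
    (hp : p ∈ A) (hfar : ∀ q ∈ B ∪ D, r ≤ M.d p q) :
    r ≤ 5 * (122 * (C * ρ) + 1) + 4 + 2 * ρ := by
  by_contra hcon
  push Not at hcon
  obtain ⟨x', y', h1, P⟩ := short_detour hA hB hD nA nB nD hp hfar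
  have h2 := P.dist_le
  have h3 : r / ρ * ρ ≤ r := Nat.div_mul_le_self r ρ
  have h4 : r < r / ρ * ρ + ρ := by
    have := Nat.div_add_mod r ρ
    have := Nat.mod_lt r hρ
    rw [mul_comm]
    omega
  have key := detour hR h1 P (R := 122 * (C * ρ) + 1) (n := r / ρ) (by omega)
  have h5 : C * (122 * (C * ρ) + 1 + 20 * r + 2 * M.d x' y') ≤ C * (61 * r) :=
    Nat.mul_le_mul_left _ (by omega)
  have h6 : (122 * (C * ρ) + 1) * (r / ρ) * ρ ≤ C * (61 * r) * ρ :=
    Nat.mul_le_mul_right _ (key.trans h5)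
  have h7 : r ≤ 2 * (r / ρ * ρ) := by omega
  have h8 : (122 * (C * ρ) + 1) * r ≤ (122 * (C * ρ) + 1) * (2 * (r / ρ * ρ)) :=
    Nat.mul_le_mul_left _ h7
  nlinarith

/-- slim triangles -/
theorem slim {ρ C : ℕ} (hρ : 0 < ρ) (hR : M.Rect ρ C) : ∃ δ : ℕ, ∀ {A B D : Set G} {x y z : G},
    M.Geo A x y → M.Geo B x z → M.Geo D z y → ∀ a ∈ A, ∃ q ∈ B ∪ D, M.d a q ≤ δ := by
  classical
  refine ⟨5 * (122 * (C * ρ) + 1) + 4 + 2 * ρ, ?_⟩
  intro A B D x y z hA hB hD
  have hex : ∃ r, (∀ a ∈ A, ∃ q ∈ B ∪ D, M.d a q ≤ r) ∧ (∀ a ∈ B, ∃ q ∈ A ∪ D, M.d a q ≤ r) ∧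
      (∀ a ∈ D, ∃ q ∈ A ∪ B, M.d a q ≤ r) := by
    refine ⟨M.d x y + M.d x z + M.d z y, ?_, ?_, ?_⟩
    · intro a ha
      refine ⟨y, Or.inr hD.memr, ?_⟩
      have := hA.col a ha
      omega
    · intro a ha
      refine ⟨z, Or.inr hD.meml, ?_⟩
      have := hB.col a ha
      omega
    · intro a ha
      refine ⟨y, Or.inl hA.memr, ?_⟩
      have := hD.col a ha
      omega
  obtain ⟨nA, nB, nD⟩ := Nat.find_spec hex
  set r := Nat.find hex with hr
  suffices H : r ≤ 5 * (122 * (C * ρ) + 1) + 4 + 2 * ρ by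
    intro a ha
    obtain ⟨q, hq, hd⟩ := nA a ha
    exact ⟨q, hq, hd.trans H⟩
  rcases Nat.eq_zero_or_pos r with h0 | h0
  · omega
  have hmin := Nat.find_min hex (m := r - 1) (by omega)
  by_cases cA : ∀ a ∈ A, ∃ q ∈ B ∪ D, M.d a q ≤ r - 1
  · by_cases cB : ∀ a ∈ B, ∃ q ∈ A ∪ D, M.d a q ≤ r - 1
    · have cD : ¬ ∀ a ∈ D, ∃ q ∈ A ∪ B, M.d a q ≤ r - 1 := fun h => hmin ⟨cA, cB, h⟩
      push Not at cD
      obtain ⟨p, hp, hfar⟩ := cD
      refine extremal_le hρ hR (p := p) hD hB.symm hA ?_ ?_ ?_ hp ?_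
      · rwa [Set.union_comm]
      · rwa [Set.union_comm]
      · rwa [Set.union_comm]
      · intro q hq
        have := hfar q (by rwa [Set.union_comm])
        omega
    · push Not at cB
      obtain ⟨p, hp, hfar⟩ := cB
      refine extremal_le hρ hR (p := p) hB hA hD.symm nB nA ?_ hp ?_
      · rwa [Set.union_comm]
      · intro q hq
        have := hfar q hq
        omega
  · push Not at cA
    obtain ⟨p, hp, hfar⟩ := cA
    refine extremal_le hρ hR (p := p) hA hB hD nA nB nD hp ?_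
    intro q hq
    have := hfar q hq
    omega

/-- the four point condition -/
theorem four_point {ρ C : ℕ} (hρ : 0 < ρ) (hR : M.Rect ρ C) : ∃ δ : ℕ, ∀ w x y z : G,
    M.d y w + M.d x z ≤ M.d z w + M.d x y + δ ∨ M.d y w + M.d x z ≤ M.d x w + M.d y z + δ := by
  obtain ⟨δ, hδ⟩ := slim hρ hR
  refine ⟨6 * δ + 2, fun w x y z => ?_⟩
  obtain ⟨A, hA⟩ := M.exists_geo x z
  obtain ⟨B, hB⟩ := M.exists_geo x w
  obtain ⟨D, hD⟩ := M.exists_geo w z
  obtain ⟨B', hB'⟩ := M.exists_geo x y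
  obtain ⟨D', hD'⟩ := M.exists_geo y z
  have hp : ∃ p ∈ A, ∃ q1 ∈ B, ∃ q2 ∈ D, M.d p q1 ≤ δ ∧ M.d p q2 ≤ δ + 1 := by
    by_cases hz : ∃ q ∈ B, M.d z q ≤ δ
    · obtain ⟨q, hq, hd⟩ := hz
      exact ⟨z, hA.memr, q, hq, z, hD.memr, hd, by rw [M.refl]; omega⟩
    · rcases (hA.pth hA.meml hA.memr).lastTime (fun v => ∃ q ∈ B, M.d v q ≤ δ) hz with
        h1 | ⟨v, v', m, _, hv1, ⟨q, hq, hd⟩, hvv, hc⟩
      · exact absurd ⟨x, hB.meml, by rw [M.refl]; omega⟩ h1.first.2
      · obtain ⟨q2, hq2, hd2⟩ := hδ hA hB hD v' hc.first.1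
        rcases hq2 with hq2 | hq2
        · exact absurd ⟨q2, hq2, hd2⟩ hc.first.2
        · refine ⟨v, hv1, q, hq, q2, hq2, hd, ?_⟩
          have := M.tri v v' q2
          omega
  obtain ⟨p, hp, q1, hq1, q2, hq2, h1, h2⟩ := hp
  have e1 := hA.col p hp
  have e2 := hB.col q1 hq1
  have e3 := hD.col q2 hq2
  have hw : 2 * M.d p w + M.d x z ≤ M.d x w + M.d z w + 4 * δ + 2 := by
    have := M.tri p q1 w
    have := M.tri p q2 w
    have := M.symm q2 w
    have := M.symm z w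
    have := M.tri x q1 p
    have := M.symm q1 p
    have := M.tri p q2 z
    omega
  obtain ⟨q, hq, hd⟩ := hδ hA hB' hD' p hp
  have := M.tri q p w
  have := M.symm q p
  rcases hq with hq | hq
  · left
    have := hB'.col q hq
    have := M.tri x q w
    have := M.tri y q w
    have := M.symm y q
    omega
  · right
    have := hD'.col q hq
    have := M.tri y q w
    have := M.tri z q w
    have := M.symm z q
    omega

end DMet

end Crest.Agent.R177.HypAux
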