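import Crest.Agent.R177.HypRect
import Crest.Agent.R177.Hyp.Slim

/-!
# The word metric is a discrete geodesic metric satisfying the rectangle inequality
-/

set_option autoImplicit false

namespace Crest.Agent.R177.HypAux

open Crest.GroupTheory

section
variable {G : Type} [Group G] {S : Set G}

theorem exists_list (hS : Subgroup.closure S = ⊤) (g : G) :
    ∃ l : List G, l.length = wordLength S g ∧ (∀ x ∈ l, x ∈ S ∨ x⁻¹ ∈ S) ∧ l.prod = g := by
  have hne : {n : ℕ | ∃ l : List G, l.length = n ∧ (∀ x ∈ l, x ∈ S ∨ x⁻¹ ∈ S) ∧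
      l.prod = g}.Nonempty := by
    have hg : g ∈ (Subgroup.closure S).toSubmonoid := by
      rw [hS]; trivial
    rw [Subgroup.closure_toSubmonoid] at hg
    obtain ⟨l, hl, rfl⟩ := Submonoid.exists_list_of_mem_closure hg
    exact ⟨_, l, rfl, fun x hx => by simpa using hl x hx, rfl⟩
  exact Nat.sInf_mem hne

theorem wl_le (g : G) (l : List G) (hl : ∀ x ∈ l, x ∈ S ∨ x⁻¹ ∈ S) (hg : l.prod = g) :
    wordLength S g ≤ l.length :=
  Nat.sInf_le ⟨l, rfl, hl, hg⟩

theorem wl_inv_le (hS : Subgroup.closure S = ⊤) (g : G) : wordLength S g⁻¹ ≤ wordLength S g := by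
  obtain ⟨l, h1, h2, h3⟩ := exists_list hS g
  have := wl_le (S := S) g⁻¹ (l.map (·⁻¹)).reverse (by
    intro x hx
    simp only [List.mem_reverse, List.mem_map] at hx
    obtain ⟨y, hy, rfl⟩ := hx
    simpa [or_comm] using h2 y hy) (by rw [← h3, List.prod_inv_reverse])
  simpa [h1] using this

theorem wl_mul_le (hS : Subgroup.closure S = ⊤) (g h : G) :
    wordLength S (g * h) ≤ wordLength S g + wordLength S h := by
  obtain ⟨l, h1, h2, h3⟩ := exists_list hS g
  obtain ⟨l', h1', h2', h3'⟩ := exists_list hS h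
  have := wl_le (S := S) (g * h) (l ++ l') (by
    intro x hx
    rcases List.mem_append.1 hx with hx | hx
    · exact h2 x hx
    · exact h2' x hx) (by rw [List.prod_append, h3, h3'])
  simpa [h1, h1'] using this

/-- the word metric -/
noncomputable def wordMet (hS : Subgroup.closure S = ⊤) : DMet G where
  d x y := wordLength S (x⁻¹ * y)
  refl x := by
    have := wl_le (S := S) (x⁻¹ * x) [] (by simp) (by simp)
    simpa using this
  symm x y := by
    have h1 := wl_inv_le hS (x⁻¹ * y)
    have h2 := wl_inv_le hS (y⁻¹ * x)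
    simp only [mul_inv_rev, inv_inv] at h1 h2
    omega
  tri x y z := by
    have := wl_mul_le hS (x⁻¹ * y) (y⁻¹ * z)
    simpa [mul_assoc] using this
  eq0 x y h := by
    obtain ⟨l, h1, _, h3⟩ := exists_list hS (x⁻¹ * y)
    rw [h, List.length_eq_zero_iff] at h1
    subst h1
    simp only [List.prod_nil] at h3
    exact inv_mul_eq_one.1 h3.symm
  step x y n h := by
    obtain ⟨l, h1, h2, h3⟩ := exists_list hS (x⁻¹ * y)
    rw [h] at h1
    rcases l with _ | ⟨a, l⟩
    · simp at h1
    · have e1 : wordLength S (x⁻¹ * (x * a)) ≤ 1 :=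
        wl_le (S := S) _ [a] (by simpa using h2 a (by simp)) (by simp)
      have e2 : wordLength S ((x * a)⁻¹ * y) ≤ l.length :=
        wl_le (S := S) _ l (fun b hb => h2 b (by simp [hb])) (by
          rw [List.prod_cons] at h3
          rw [mul_inv_rev, mul_assoc, ← h3]
          simp)
      have e3 := wl_mul_le hS (x⁻¹ * (x * a)) ((x * a)⁻¹ * y)
      have e4 : x⁻¹ * (x * a) * ((x * a)⁻¹ * y) = x⁻¹ * y := by group
      rw [e4, h] at e3
      simp only [List.length_cons] at h1
      exact ⟨x * a, e1, by omega⟩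

end

variable {G T : Type} [Group G] {ι : T → G}

theorem adj_of_le (hgen : Subgroup.closure (Set.range ι) = ⊤) {x y : G}
    (h : (wordMet hgen).d x y ≤ 1) :
    x = y ∨ ∃ s : T × Bool, y = x * FreeGroup.lift ι (FreeGroup.mk [s]) := by
  obtain ⟨l, h1, h2, h3⟩ := exists_list hgen (x⁻¹ * y)
  change wordLength (Set.range ι) (x⁻¹ * y) ≤ 1 at h
  rcases l with _ | ⟨a, _ | ⟨b, l⟩⟩
  · left
    simp only [List.prod_nil] at h3
    exact inv_mul_eq_one.1 h3.symm
  · right
    simp only [List.prod_cons, List.prod_nil, mul_one] at h3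
    have hy : y = x * a := by rw [h3]; simp
    rcases h2 a (by simp) with ⟨t, ht⟩ | ⟨t, ht⟩
    · exact ⟨(t, true), by simp [hy, ht]⟩
    · exact ⟨(t, false), by simp [hy, ht]⟩
  · simp only [List.length_cons] at h1
    omega

theorem d_gen (hgen : Subgroup.closure (Set.range ι) = ⊤) (x : G) (t : T) :
    (wordMet hgen).d x (x * ι t) ≤ 1 :=
  wl_le (S := Set.range ι) _ [ι t] (by simp) (by simp)

theorem lift_append (w1 w2 : List (T × Bool)) : FreeGroup.lift ι (FreeGroup.mk (w1 ++ w2)) =
    FreeGroup.lift ι (FreeGroup.mk w1) * FreeGroup.lift ι (FreeGroup.mk w2) := by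
  rw [← FreeGroup.mul_mk, map_mul]

theorem wpt_zero (x : G) (w : List (T × Bool)) : wpt ι x w 0 = x := by
  simp [wpt]

theorem wpt_cons (x : G) (s : T × Bool) (w : List (T × Bool)) (k : ℕ) :
    wpt ι x (s :: w) (k + 1) = wpt ι (x * FreeGroup.lift ι (FreeGroup.mk [s])) w k := by
  unfold wpt
  rw [List.take_succ_cons, mul_assoc, ← lift_append]
  rfl

theorem wpt_left (x : G) (w1 w2 : List (T × Bool)) {k : ℕ} (hk : k ≤ w1.length) :
    wpt ι x (w1 ++ w2) k = wpt ι x w1 k := by
  unfold wpt
  rw [List.take_append_of_le_length hk]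

theorem wpt_right (x : G) (w1 w2 : List (T × Bool)) (k : ℕ) :
    wpt ι x (w1 ++ w2) (w1.length + k) =
      wpt ι (x * FreeGroup.lift ι (FreeGroup.mk w1)) w2 k := by
  unfold wpt
  rw [List.take_length_add_append, lift_append, mul_assoc]

theorem exists_word (hgen : Subgroup.closure (Set.range ι) = ⊤) {P : G → Prop} {x y : G} {n : ℕ}
    (h : (wordMet hgen).Pth P x y n) : ∃ w : List (T × Bool), w.length ≤ n ∧
      x * FreeGroup.lift ι (FreeGroup.mk w) = y ∧ ∀ k ≤ w.length, P (wpt ι x w k) := by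
  induction h with
  | nil x hx =>
    refine ⟨[], le_rfl, by simp, ?_⟩
    intro k hk
    obtain rfl : k = 0 := by simpa using hk
    rwa [wpt_zero]
  | cons x y z n hx hd _ ih =>
    obtain ⟨w, h1, h2, h3⟩ := ih
    rcases adj_of_le hgen hd with rfl | ⟨s, rfl⟩
    · exact ⟨w, by omega, h2, h3⟩
    · refine ⟨s :: w, by simpa using h1, ?_, ?_⟩
      · rw [← h2, mul_assoc, ← lift_append]
        rfl
      · intro k hk
        rcases k with _ | k
        · rwa [wpt_zero]
        · rw [wpt_cons]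
          exact h3 k (by simpa using hk)

theorem rect_wordMet (hgen : Subgroup.closure (Set.range ι) = ⊤) {ρ C : ℕ} (hρ : 0 < ρ)
    (hfill : LinFill ι ρ C) : (wordMet hgen).Rect ρ C := by
  intro f h hf hh R n a b hab x y n1 n2 h0 h1 P1 P2
  obtain ⟨w1, l1, e1, q1⟩ := exists_word hgen P1
  obtain ⟨w2, l2, e2, q2⟩ := exists_word hgen P2
  have hw : FreeGroup.lift ι (FreeGroup.mk (w1 ++ w2)) = 1 := by
    rw [lift_append]
    rw [← e1, mul_assoc] at e2
    exact mul_eq_left.1 e2
  have key := rect ι hρ hfill hgen f h (fun x t => hf _ _ (d_gen hgen x t))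
    (fun x t => hh _ _ (d_gen hgen x t)) x (w1 ++ w2) hw R n a b hab w1.length (by simp) h0
    (by
      have := wpt_right (ι := ι) x w1 w2 0
      rw [add_zero, wpt_zero, e1] at this
      rwa [this])
    (by
      intro k hk
      rw [wpt_left x w1 w2 hk]
      exact q1 k hk)
    (by
      intro k hk hk'
      obtain ⟨j, rfl⟩ := Nat.exists_eq_add_of_le hk
      rw [wpt_right, e1]
      exact q2 j (by simpa using hk'))
  refine key.trans (Nat.mul_le_mul_left _ ?_)
  rw [List.length_append]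
  omega

theorem linFill_succ {ρ C : ℕ} (hfill : LinFill ι ρ C) : LinFill ι (ρ + 1) C := by
  intro w hw
  obtain ⟨I, hI, z, h1, h2, h3⟩ := hfill w hw
  exact ⟨I, hI, z, h1, fun i p hp p' hp' => (h2 i p hp p' hp').trans (Nat.le_succ _), h3⟩

end Crest.Agent.R177.HypAux
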