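import Mathlib

/-!
# Discrete geodesic spaces: a rectangle (coarea) inequality implies the four point condition
-/

set_option autoImplicit false

namespace Crest.Agent.R177.HypAux

/-- a discrete geodesic metric -/
structure DMet (G : Type) where
  d : G → G → ℕ
  refl : ∀ x, d x x = 0
  symm : ∀ x y, d x y = d y x
  tri : ∀ x y z, d x z ≤ d x y + d y z
  eq0 : ∀ x y, d x y = 0 → x = y
  step : ∀ x y n, d x y = n + 1 → ∃ z, d x z ≤ 1 ∧ d z y = n

namespace DMet

variable {G : Type} (M : DMet G)

/-- lazy paths with `n` steps all of whose vertices satisfy `P` -/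
inductive Pth (P : G → Prop) : G → G → ℕ → Prop
  | nil (x : G) : P x → Pth P x x 0
  | cons (x y z : G) (n : ℕ) : P x → M.d x y ≤ 1 → Pth P y z n → Pth P x z (n + 1)

variable {M}

theorem Pth.first {P : G → Prop} {x y : G} {n : ℕ} (h : M.Pth P x y n) : P x := by
  cases h <;> assumption

theorem Pth.last {P : G → Prop} {x y : G} {n : ℕ} (h : M.Pth P x y n) : P y := by
  induction h <;> assumption

theorem Pth.mono {P Q : G → Prop} {x y : G} {n : ℕ} (h : M.Pth P x y n) (hPQ : ∀ v, P v → Q v) :
    M.Pth Q x y n := by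
  induction h with
  | nil x hx => exact Pth.nil x (hPQ _ hx)
  | cons x y z n hx hd _ ih => exact Pth.cons x y z n (hPQ _ hx) hd ih

theorem Pth.le {P : G → Prop} {x y : G} {n m : ℕ} (h : M.Pth P x y n) (hnm : n ≤ m) :
    M.Pth P x y m := by
  induction hnm with
  | refl => exact h
  | step _ ih => exact Pth.cons x x y _ h.first (by rw [M.refl]; omega) ih

theorem Pth.trans {P : G → Prop} {x y z : G} {n m : ℕ} (h : M.Pth P x y n) (h' : M.Pth P y z m) :
    M.Pth P x z (n + m) := by
  induction h with
  | nil x _ => simpa using h'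
  | cons x y w n hx hd _ ih =>
    have : n + 1 + m = (n + m) + 1 := by omega
    rw [this]
    exact Pth.cons x y z _ hx hd (ih h')

theorem Pth.single {P : G → Prop} {x y : G} (hx : P x) (hy : P y) (hd : M.d x y ≤ 1) :
    M.Pth P x y 1 :=
  Pth.cons x y y 0 hx hd (Pth.nil y hy)

theorem Pth.symm {P : G → Prop} {x y : G} {n : ℕ} (h : M.Pth P x y n) : M.Pth P y x n := by
  induction h with
  | nil x hx => exact Pth.nil x hx
  | cons x y z n hx hd h ih =>
    exact ih.trans (Pth.single h.first hx (by rw [M.symm]; exact hd))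

theorem Pth.dist_le {P : G → Prop} {x y : G} {n : ℕ} (h : M.Pth P x y n) : M.d x y ≤ n := by
  induction h with
  | nil x _ => rw [M.refl]
  | cons x y z n _ hd _ ih => have := M.tri x y z; omega

/-- the last vertex satisfying `Q` -/
theorem Pth.lastTime {P : G → Prop} (Q : G → Prop) {x y : G} {n : ℕ} (h : M.Pth P x y n)
    (hy : ¬ Q y) : M.Pth (fun v => P v ∧ ¬ Q v) x y n ∨
      ∃ v v' m, m + 1 ≤ n ∧ P v ∧ Q v ∧ M.d v v' ≤ 1 ∧ M.Pth (fun v => P v ∧ ¬ Q v) v' y m := by
  induction h with
  | nil x hx => exact Or.inl (Pth.nil x ⟨hx, hy⟩)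
  | cons x y z n hx hd _ ih =>
    rcases ih hy with h1 | ⟨v, v', m, hm, h1, h2, h3, h4⟩
    · by_cases hq : Q x
      · exact Or.inr ⟨x, y, n, le_rfl, hx, hq, hd, h1⟩
      · exact Or.inl (Pth.cons x y z n ⟨hx, hq⟩ hd h1)
    · exact Or.inr ⟨v, v', m, by omega, h1, h2, h3, h4⟩

/-- a geodesic path -/
theorem pth_geo (M : DMet G) (x y : G) :
    M.Pth (fun v => M.d x v + M.d v y = M.d x y) x y (M.d x y) := by
  suffices H : ∀ n x, M.d x y = n → M.Pth (fun v => M.d x v + M.d v y = M.d x y) x y n from
    H _ x rfl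
  intro n
  induction n with
  | zero =>
    intro x hx
    obtain rfl := M.eq0 _ _ hx
    exact Pth.nil x (by simp [M.refl])
  | succ n ih =>
    intro x hx
    obtain ⟨z, hz1, hz2⟩ := M.step x y n hx
    refine Pth.cons x z y n (by simp [M.refl]) hz1 ((ih z hz2).mono ?_)
    intro v hv
    have := M.tri x z v
    have := M.tri x v y
    omega

/-- the vertex set of a geodesic from `x` to `y` -/
structure Geo (M : DMet G) (A : Set G) (x y : G) : Prop where
  meml : x ∈ A
  memr : y ∈ A
  ex : ∀ k ≤ M.d x y, ∃ u ∈ A, M.d x u = k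
  col : ∀ u ∈ A, M.d x u + M.d u y = M.d x y
  lin : ∀ u ∈ A, ∀ v ∈ A, M.d x u ≤ M.d x v → M.d x u + M.d u v = M.d x v

theorem Geo.symm {A : Set G} {x y : G} (h : M.Geo A x y) : M.Geo A y x where
  meml := h.memr
  memr := h.meml
  ex := by
    intro k hk
    rw [M.symm] at hk
    obtain ⟨u, hu, hd⟩ := h.ex (M.d x y - k) (by omega)
    refine ⟨u, hu, ?_⟩
    have := h.col u hu
    rw [M.symm y u]
    omega
  col := by
    intro u hu
    have := h.col u hu
    rw [M.symm y u, M.symm u x, M.symm y x]
    omega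
  lin := by
    intro u hu v hv huv
    have h1 := h.col u hu
    have h2 := h.col v hv
    rw [M.symm y u, M.symm y v] at huv
    have h3 := h.lin v hv u hu (by omega)
    rw [M.symm y u, M.symm y v, M.symm u v]
    omega

theorem exists_geo (M : DMet G) (x y : G) : ∃ A, M.Geo A x y := by
  suffices H : ∀ n x, M.d x y = n → ∃ A, M.Geo A x y from H _ x rfl
  intro n
  induction n with
  | zero =>
    intro x hx
    obtain rfl := M.eq0 _ _ hx
    refine ⟨{x}, rfl, rfl, ?_, ?_, ?_⟩
    · intro k hk
      exact ⟨x, rfl, by omega⟩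
    · rintro u rfl
      simp [M.refl]
    · rintro u rfl v rfl _
      simp [M.refl]
  | succ n ih =>
    intro x hx
    obtain ⟨z, hz1, hz2⟩ := M.step x y n hx
    obtain ⟨A, hA⟩ := ih z hz2
    have key : ∀ u ∈ A, M.d x u = M.d z u + 1 := by
      intro u hu
      have := hA.col u hu
      have := M.tri x z u
      have := M.tri x u y
      omega
    refine ⟨insert x A, Set.mem_insert _ _, Set.mem_insert_of_mem _ hA.memr, ?_, ?_, ?_⟩
    · intro k hk
      rcases k with _ | k
      · exact ⟨x, Set.mem_insert _ _, M.refl x⟩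
      · obtain ⟨u, hu, hd⟩ := hA.ex k (by omega)
        exact ⟨u, Set.mem_insert_of_mem _ hu, by rw [key u hu, hd]⟩
    · rintro u (rfl | hu)
      · simp [M.refl]
      · have := hA.col u hu
        have := key u hu
        omega
    · rintro u (rfl | hu) v hv huv
      · simp [M.refl]
      · rcases hv with rfl | hv
        · have := key u hu
          have := M.refl v
          omega
        · have h1 := key u hu
          have h2 := key v hv
          have := hA.lin u hu v hv (by omega)
          omega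

theorem Geo.pth_aux {A : Set G} {x y : G} (h : M.Geo A x y) {v : G} (hv : v ∈ A) :
    ∀ n, ∀ u ∈ A, M.d x u + n = M.d x v → M.Pth (· ∈ A) u v n := by
  intro n
  induction n with
  | zero =>
    intro u hu hd
    have := h.lin u hu v hv (by omega)
    obtain rfl := M.eq0 u v (by omega)
    exact Pth.nil u hu
  | succ n ih =>
    intro u hu hd
    have := h.col v hv
    obtain ⟨u', hu', hd'⟩ := h.ex (M.d x u + 1) (by omega)
    have := h.lin u hu u' hu' (by omega)
    exact Pth.cons u u' v n hu (by omega) (ih u' hu' (by omega))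

theorem Geo.pth {A : Set G} {x y : G} (h : M.Geo A x y) {u v : G} (hu : u ∈ A) (hv : v ∈ A) :
    M.Pth (· ∈ A) u v (M.d u v) := by
  rcases le_total (M.d x u) (M.d x v) with huv | huv
  · exact h.pth_aux hv _ u hu (h.lin u hu v hv huv)
  · have := h.pth_aux hu _ v hv (h.lin v hv u hu huv)
    rw [M.symm u v]
    exact this.symm

/-- the rectangle inequality, for lazy paths -/
def Rect (M : DMet G) (ρ C : ℕ) : Prop :=
  ∀ (f h : G → ℤ), (∀ x y, M.d x y ≤ 1 → |f y - f x| ≤ 1) → (∀ x y, M.d x y ≤ 1 → |h y - h x| ≤ 1) →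
    ∀ (R n : ℕ) (a b : ℤ), a + n * ρ + 3 ≤ b → ∀ (x y : G) (n1 n2 : ℕ), f x ≤ 0 → (R : ℤ) ≤ f y →
      M.Pth (fun v => f v ≤ R → h v ≤ a) x y n1 →
      M.Pth (fun v => 0 < f v → f v ≤ R → b < h v) y x n2 → R * n ≤ C * (n1 + n2)

/-- paths avoiding a ball centred on a geodesic are long -/
theorem detour {ρ C : ℕ} (hR : M.Rect ρ C) {x y p : G} (hp : M.d x p + M.d p y = M.d x y)
    {r N : ℕ} (hc : M.Pth (fun v => r ≤ M.d p v) x y N) {R n : ℕ}
    (hRn : 5 * R + n * ρ + 4 ≤ 2 * r) : R * n ≤ C * (R + N + 2 * M.d x y) := by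
  classical
  set A : Set G := {s | M.d x s + M.d s p = M.d x p ∨ M.d p s + M.d s y = M.d p y} with hA
  have hxA : x ∈ A := Or.inl (by simp [M.refl])
  have hex : ∀ v, ∃ k, ∃ s ∈ A, M.d v s = k := fun v => ⟨_, x, hxA, rfl⟩
  set F : G → ℕ := fun v => Nat.find (hex v) with hF
  have hF1 : ∀ v, ∃ s ∈ A, M.d v s = F v := fun v => Nat.find_spec (hex v)
  have hF2 : ∀ v, ∀ s ∈ A, F v ≤ M.d v s := fun v s hs => Nat.find_min' (hex v) ⟨s, hs, rfl⟩
  have hFA : ∀ s ∈ A, F s = 0 := by
    intro s hs
    have := hF2 s s hs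
    rw [M.refl] at this
    omega
  have hFl : ∀ v v', F v ≤ F v' + M.d v v' := by
    intro v v'
    obtain ⟨s, hs, hd⟩ := hF1 v'
    have := hF2 v s hs
    have := M.tri v v' s
    omega
  have dich : ∀ v, r ≤ M.d p v → F v ≤ R →
      M.d x v + r ≤ M.d x p + 2 * R ∨ M.d x p + r ≤ M.d x v + 2 * R := by
    intro v hv hFv
    obtain ⟨s, hs, hd⟩ := hF1 v
    have h1 := M.tri p s v
    have h2 := M.symm s v
    have h3 := M.symm s p
    rcases hs with hs | hs
    · left
      have := M.tri x s v
      omega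
    · right
      have := M.tri x s y
      have := M.tri x v s
      omega
  have hrx : r ≤ M.d p x := hc.first
  have hry : r ≤ M.d p y := hc.last
  have hpx := M.symm p x
  rcases hc.lastTime (fun v => F v ≤ R ∧ M.d x v + r ≤ M.d x p + 2 * R) (by omega) with
    h1 | ⟨v, v', m, hm, hv1, hv2, hvv, hc'⟩
  · exfalso
    apply h1.first.2
    rw [hFA x hxA, M.refl]
    omega
  obtain ⟨s, hs, hsd⟩ := hF1 v
  have hv' : R < F v' := by
    by_contra hcon
    have h1 := hc'.first
    have h2 := dich v' h1.1 (by omega)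
    have h3 := M.tri x v v'
    omega
  have P1 : M.Pth (fun w => (F w : ℤ) ≤ R →
      (M.d x w : ℤ) ≤ (M.d x p : ℤ) - r + 3 * R) s v' (R + 1) := by
    refine Pth.trans (y := v) ?_ (Pth.single ?_ ?_ hvv)
    · refine ((M.pth_geo s v).mono ?_).le (by rw [M.symm]; omega)
      intro w hw _
      have := M.tri x v w
      have := M.symm v w
      have := M.symm v s
      omega
    · intro _
      omega
    · intro _
      omega
  have hps : M.d p s ≤ M.d x y := by
    have := M.symm p s
    rcases hs with hs | hs <;> omega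
  have P2 : M.Pth (fun w => 0 < (F w : ℤ) → (F w : ℤ) ≤ R →
      (M.d x p : ℤ) + r - 2 * R - 1 < (M.d x w : ℤ)) v' s (m + (M.d y p + M.d p s)) := by
    refine Pth.trans (y := y) (hc'.mono ?_) (Pth.trans (y := p) ?_ ?_)
    · intro w hw _ h2
      have := dich w hw.1 (by omega)
      have := hw.2
      omega
    · refine (M.pth_geo y p).mono ?_
      intro w hw h1 _
      have h2 : w ∈ A := by
        right
        rw [M.symm p w, M.symm w y, M.symm p y]
        omega
      have := hFA w h2
      omega
    · refine (M.pth_geo p s).mono ?_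
      intro w hw h1 _
      have h2 : w ∈ A := by
        rcases hs with hs | hs
        · left
          have := M.tri x s w
          have := M.tri x w p
          have := M.symm w s
          have := M.symm p w
          have := M.symm p s
          omega
        · right
          have := M.tri w s y
          have := M.tri p w y
          omega
      have := hFA w h2
      omega
  have key := hR (fun w => (F w : ℤ)) (fun w => (M.d x w : ℤ)) ?_ ?_ R n _ _ ?_ s v' _ _ ?_ ?_ P1 P2
  · refine key.trans (Nat.mul_le_mul_left _ ?_)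
    have := M.symm y p
    omega
  · intro a b hab
    have := hFl a b
    have := hFl b a
    have := M.symm a b
    rw [abs_le]
    omega
  · intro a b hab
    have := M.tri x a b
    have := M.tri x b a
    have := M.symm a b
    rw [abs_le]
    omega
  · have : ((5 * R + n * ρ + 4 : ℕ) : ℤ) ≤ ((2 * r : ℕ) : ℤ) := by exact_mod_cast hRn
    push_cast at this
    linarith
  · simp [hFA s hs]
  · show (R : ℤ) ≤ (F v' : ℤ)
    omega

end DMet

end Crest.Agent.R177.HypAux
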